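import Mathlib
import Vale.Agent.Lib.P130.KoopmanRange

open MeasureTheory ComplexConjugate Filter Vale.Agent.Lib.P130

namespace Vale.Agent.Results.P130.OneSidedImpossible

variable {X : Type*} [MeasurableSpace X] {μ : Measure X}

/-- Ulam's literal formulation: the forward orbit `f ∘ T^n`, `n = 1, 2, 3, …` is a complete
orthogonal set of `L²(μ)`. -/
def CompleteOrthogonalForwardOrbit (μ : Measure X) (T : X → X) (f : X → ℂ) : Prop :=
  MemLp f 2 μ ∧ ¬ f =ᵐ[μ] 0 ∧
  (∀ n m : ℕ, 1 ≤ n → 1 ≤ m → n ≠ m → ∫ x, f (T^[n] x) * conj (f (T^[m] x)) ∂μ = 0) ∧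
  (∀ g : X → ℂ, MemLp g 2 μ → (∀ n : ℕ, 1 ≤ n → ∫ x, g x * conj (f (T^[n] x)) ∂μ = 0) →
    g =ᵐ[μ] 0)

/-- one-sided probability version: `f ∘ T^n`, `n = 0, 1, 2, …` is an orthonormal basis of the
space `L²₀(μ)` of mean-zero square integrable functions. -/
def ForwardOrbitBasisOfMeanZero (μ : Measure X) (T : X → X) (f : X → ℂ) : Prop :=
  MemLp f 2 μ ∧ ∫ x, f x ∂μ = 0 ∧
  (∀ n m : ℕ, ∫ x, f (T^[n] x) * conj (f (T^[m] x)) ∂μ = if n = m then 1 else 0) ∧
  (∀ g : X → ℂ, MemLp g 2 μ → ∫ x, g x ∂μ = 0 →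
    (∀ n : ℕ, ∫ x, g x * conj (f (T^[n] x)) ∂μ = 0) → g =ᵐ[μ] 0)

theorem no_ulam [NullSingletonClass μ] [MeasurableSpace.CountablySeparated X]
    {T : X → X} (hT : MeasurePreserving T μ μ) (f : X → ℂ) :
    ¬ CompleteOrthogonalForwardOrbit μ T f := by
  rintro ⟨hf, hne, horth, hcomp⟩
  have hmem : ∀ n : ℕ, MemLp (fun x => f (T^[n] x)) 2 μ := fun n =>
    hf.comp_measurePreserving (hT.iterate n)
  have h0 : (fun x => f (T^[1] x)) =ᵐ[μ] 0 := by
    apply no_shift_basis hT (hmem 1) (Set.range fun n : ℕ => fun x => f (T^[n + 1] x))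
    · rintro b ⟨n, rfl⟩
      exact hmem (n + 1)
    · intro g hg h
      apply hcomp g hg
      intro n hn
      obtain ⟨k, rfl⟩ : ∃ k, n = k + 1 := ⟨n - 1, by omega⟩
      exact h _ ⟨k, rfl⟩
    · rintro b ⟨n, rfl⟩
      have := horth (n + 2) 1 (by omega) le_rfl (by omega)
      simpa [Function.iterate_succ_apply] using this
    · rintro b ⟨n, rfl⟩
      rcases Nat.eq_zero_or_pos n with rfl | hn
      · left; rfl
      · right
        refine ⟨⟨fun x => f (T^[n] x), hmem n, ?_⟩, horth 1 (n + 1) le_rfl (by omega) (by omega)⟩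
        funext x
        simp only [Function.iterate_succ_apply]
  apply hne
  have h1 : eLpNorm (f ∘ T) 2 μ = eLpNorm f 2 μ :=
    eLpNorm_comp_measurePreserving hf.1 hT
  have h2 : eLpNorm (f ∘ T) 2 μ = 0 := by
    rw [eLpNorm_eq_zero_iff (hf.comp_measurePreserving hT).1 (by norm_num)]
    exact h0
  rw [h2] at h1
  exact (eLpNorm_eq_zero_iff hf.1 (by norm_num)).1 h1.symm

theorem no_forward_basis [IsProbabilityMeasure μ] [NullSingletonClass μ]
    [MeasurableSpace.CountablySeparated X]
    {T : X → X} (hT : MeasurePreserving T μ μ) (f : X → ℂ) :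
    ¬ ForwardOrbitBasisOfMeanZero μ T f := by
  rintro ⟨hf, hmean, horth, hcomp⟩
  have hmem : ∀ n : ℕ, MemLp (fun x => f (T^[n] x)) 2 μ := fun n =>
    hf.comp_measurePreserving (hT.iterate n)
  have hone : MemLp (fun _ : X => (1 : ℂ)) 2 μ := memLp_const 1
  have h0 : f =ᵐ[μ] 0 := by
    apply no_shift_basis hT hf
      (insert (fun _ => (1 : ℂ)) (Set.range fun n : ℕ => fun x => f (T^[n] x)))
    · rintro b (rfl | ⟨n, rfl⟩)
      · exact hone
      · exact hmem n
    · intro g hg h
      apply hcomp g hg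
      · simpa using h _ (Set.mem_insert _ _)
      · intro n
        exact h _ (Set.mem_insert_of_mem _ ⟨n, rfl⟩)
    · rintro b (rfl | ⟨n, rfl⟩)
      · simp only [one_mul]
        rw [integral_conj, hmean]
        simp
      · have := horth (n + 1) 0
        simpa [Function.iterate_succ_apply] using this
    · rintro b (rfl | ⟨n, rfl⟩)
      · right
        exact ⟨⟨fun _ => 1, hone, rfl⟩, by simpa using hmean⟩
      · rcases Nat.eq_zero_or_pos n with rfl | hn
        · left; rfl
        · right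
          obtain ⟨k, rfl⟩ : ∃ k, n = k + 1 := ⟨n - 1, by omega⟩
          refine ⟨⟨fun x => f (T^[k] x), hmem k, ?_⟩, ?_⟩
          · funext x
            simp only [Function.iterate_succ_apply]
          · have := horth 0 (k + 1)
            simpa using this
  have h1 := horth 0 0
  simp only [Function.iterate_zero, id_eq, if_true] at h1
  have h2 : ∫ x, f x * conj (f x) ∂μ = 0 := by
    rw [integral_eq_zero_of_ae]
    filter_upwards [h0] with x hx
    simp [hx]
  rw [h2] at h1
  exact zero_ne_one h1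


/-- On a nonatomic (singletons are null) countably separated measure space no measure preserving
map, invertible or not, has a forward orbit `f ∘ T^n` that is a complete orthogonal set of `L²`
(Ulam's literal wording), nor, for a probability measure, an orthonormal basis of `L²₀`. -/
theorem result {X : Type*} [MeasurableSpace X] [MeasurableSpace.CountablySeparated X]
    (μ : Measure X) [NullSingletonClass μ] (T : X → X) (hT : MeasurePreserving T μ μ) :
    (∀ f : X → ℂ, ¬ CompleteOrthogonalForwardOrbit μ T f) ∧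
    (IsProbabilityMeasure μ → ∀ f : X → ℂ, ¬ ForwardOrbitBasisOfMeanZero μ T f) :=
  ⟨fun f => no_ulam hT f, fun _ f => no_forward_basis hT f⟩

end Vale.Agent.Results.P130.OneSidedImpossible
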